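import Mathlib
import Vale.Agent.P252.R.Spec
import Vale.Agent.P252.H429.Base

/-! Lower bound for the affine area of a cap, from `Stmt_compare` (helper651). -/

open Matrix Filter Set MeasureTheory
open scoped ContDiff Topology

namespace Vale.Agent.P252.H651

open Vale.Agent.P252.R Vale.Agent.P252.H429

variable {n : ℕ}

/-- The comparison function. -/
noncomputable def gcap (α : Fin n → ℝ) (s κ : ℝ) (p : En n) (x : En n) : ℝ :=
  s - ∑ i, α i * x i + κ * ∑ i, (x i - p i) ^ 2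

lemma contDiff_gcap (α : Fin n → ℝ) (s κ : ℝ) (p : En n) : ContDiff ℝ ∞ (gcap α s κ p) := by
  unfold gcap; fun_prop

lemma hess_gcap (α : Fin n → ℝ) (s κ : ℝ) (p : En n) (x : En n) :
    hess (gcap α s κ p) x = (2 * κ) • (1 : Matrix (Fin n) (Fin n) ℝ) := by
  have hpd : ∀ j, pd j (gcap α s κ p) = fun x => -α j + 2 * κ * (x j - p j) := by
    intro j
    funext y
    have hd : HasFDerivAt (gcap α s κ p)
        (-(∑ i, α i • (EuclideanSpace.proj i : En n →L[ℝ] ℝ)) +
          κ • ∑ i, (2 * (y i - p i)) • (EuclideanSpace.proj i : En n →L[ℝ] ℝ)) y := by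
      unfold gcap
      refine HasFDerivAt.fun_add ?_ ?_
      · have h1 : HasFDerivAt (fun x : En n => ∑ i, α i * x i)
            (∑ i, α i • (EuclideanSpace.proj i : En n →L[ℝ] ℝ)) y := by
          refine HasFDerivAt.fun_sum fun i _ => ?_
          exact ((EuclideanSpace.proj i : En n →L[ℝ] ℝ).hasFDerivAt).const_mul (α i)
        exact h1.const_sub s
      · refine HasFDerivAt.const_mul ?_ κ
        refine HasFDerivAt.fun_sum fun i _ => ?_
        have h2 : HasFDerivAt (fun x : En n => x i - p i)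
            (EuclideanSpace.proj i : En n →L[ℝ] ℝ) y :=
          ((EuclideanSpace.proj i : En n →L[ℝ] ℝ).hasFDerivAt).sub_const (p i)
        have h3 := h2.pow 2
        simpa using h3
    unfold pd
    rw [hd.fderiv]
    simp
    ring
  ext i j
  have h1 : hess (gcap α s κ p) x i j = pd i (pd j (gcap α s κ p)) x := rfl
  rw [h1, hpd j]
  have h2 : HasFDerivAt (fun x : En n => -α j + 2 * κ * (x j - p j))
      ((2 * κ) • (EuclideanSpace.proj j : En n →L[ℝ] ℝ)) x := by
    have h3 : HasFDerivAt (fun x : En n => x j - p j)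
        (EuclideanSpace.proj j : En n →L[ℝ] ℝ) x :=
      ((EuclideanSpace.proj j : En n →L[ℝ] ℝ).hasFDerivAt).sub_const (p j)
    exact (h3.const_mul (2 * κ)).const_add (-α j)
  unfold pd
  rw [h2.fderiv]
  simp [Matrix.one_apply, eq_comm]

lemma dt_gcap (α : Fin n → ℝ) (s κ : ℝ) (p : En n) (x : En n) :
    dt (gcap α s κ p) x = (2 * κ) ^ n := by
  unfold dt
  rw [hess_gcap, Matrix.det_smul, Matrix.det_one]
  simp

lemma sc_gcap (α : Fin n → ℝ) (s : ℝ) {κ : ℝ} (hκ : 0 < κ) (p : En n) {O : Set (En n)}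
    (hO : IsOpen O) : SC O (gcap α s κ p) where
  op := hO
  sm := (contDiff_gcap α s κ p).contDiffOn
  pos := fun x _ => by
    rw [hess_gcap]
    exact Matrix.PosDef.one.smul (by positivity)

lemma continuousOn_nu {Ω : Set (En n)} {u : En n → ℝ} (h : SC Ω u) (α : Fin n → ℝ) (β γ : ℝ) :
    ContinuousOn (nu u α β γ) Ω := by
  unfold nu
  have h1 : ContinuousOn u Ω := h.sm.continuousOn
  have h2 : Continuous (fun x : En n => ∑ i, α i * x i) := by fun_prop
  exact (h2.continuousOn.add (continuousOn_const.mul h1)).add continuousOn_const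

lemma continuousOn_dt {Ω : Set (En n)} {u : En n → ℝ} (h : SC Ω u) :
    ContinuousOn (dt u) Ω := by
  unfold dt
  have h1 : ContinuousOn (hess u) Ω := by
    refine continuousOn_pi.2 fun i => continuousOn_pi.2 fun j => ?_
    intro x hx
    have hu : ContDiffAt ℝ ∞ u x := h.sm.contDiffAt (h.op.mem_nhds hx)
    have h2 : ContDiffAt ℝ ∞ (pd i (pd j u)) x :=
      contDiffAt_pd (m := ∞) (contDiffAt_pd (m := ∞) hu (by simp) j) (by simp) i
    exact h2.continuousAt.continuousWithinAt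
  exact (Continuous.matrix_det continuous_id).comp_continuousOn h1

/-- Area lower bound for a cap. -/
theorem area_core (hcmp : Stmt_compare n) {Ω : Set (En n)} {u : En n → ℝ} (h : AMLoc Ω u)
    (α : Fin n → ℝ) (p : En n) {t κ ρ : ℝ} (hκ : 0 < κ)
    (hcpt : IsCompact {x | x ∈ Ω ∧ nu u α 1 0 x ≤ t})
    (hbd : ∀ x ∈ Ω, nu u α 1 0 x ≤ t → κ * ∑ i, (x i - p i) ^ 2 ≤ 1 / 2)
    (hball : ∀ x, ‖x - p‖ < ρ → x ∈ Ω ∧ nu u α 1 0 x < t - 1) :
    (2 * κ) ^ ((n : ℝ) / ((n : ℝ) + 2)) * (volume (Metric.ball p ρ)).toReal ≤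
      ∫ x in {x | x ∈ Ω ∧ nu u α 1 0 x < t}, dt u x ^ (1 / ((n : ℝ) + 2)) := by
  set O : Set (En n) := {x | x ∈ Ω ∧ nu u α 1 0 x < t} with hO
  set g : En n → ℝ := gcap α (t - 1) κ p with hg
  have hOop : IsOpen O := (continuousOn_nu h.toSC α 1 0).isOpen_inter_preimage h.op isOpen_Iio
  have hgc : Continuous g := (contDiff_gcap α (t - 1) κ p).continuous
  have huc : ContinuousOn u Ω := h.sm.continuousOn
  have hug : ∀ x, u x ≤ g x ↔ nu u α 1 0 x ≤ t - 1 + κ * ∑ i, (x i - p i) ^ 2 := by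
    intro x
    simp only [hg, gcap, nu]
    constructor <;> intro h1 <;> linarith
  have hug' : ∀ x, u x < g x ↔ nu u α 1 0 x < t - 1 + κ * ∑ i, (x i - p i) ^ 2 := by
    intro x
    simp only [hg, gcap, nu]
    constructor <;> intro h1 <;> linarith
  have hsq0 : ∀ x : En n, 0 ≤ κ * ∑ i, (x i - p i) ^ 2 := fun x =>
    mul_nonneg hκ.le (Finset.sum_nonneg fun i _ => sq_nonneg _)
  -- compactness
  have hK : IsCompact {x | x ∈ O ∧ u x ≤ g x} := by
    have e : {x | x ∈ O ∧ u x ≤ g x} =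
        {x | x ∈ Ω ∧ nu u α 1 0 x ≤ t} ∩ {x | x ∈ Ω ∧ u x ≤ g x} := by
      ext x
      constructor
      · rintro ⟨⟨h1, h2⟩, h3⟩
        exact ⟨⟨h1, h2.le⟩, h1, h3⟩
      · rintro ⟨⟨h1, h2⟩, -, h3⟩
        refine ⟨⟨h1, ?_⟩, h3⟩
        have h4 := (hug x).1 h3
        have h5 := hbd x h1 h2
        linarith
    rw [e]
    -- relatively closed subset of a compact set
    have h1 : {x | x ∈ Ω ∧ nu u α 1 0 x ≤ t} ∩ {x | x ∈ Ω ∧ u x ≤ g x} =
        {x | x ∈ Ω ∧ nu u α 1 0 x ≤ t} ∩ (fun x => u x - g x) ⁻¹' Iic 0 := by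
      ext x
      constructor
      · rintro ⟨h1, -, h3⟩
        exact ⟨h1, by simpa using h3⟩
      · rintro ⟨h1, h3⟩
        exact ⟨h1, h1.1, by simpa using h3⟩
    rw [h1]
    have h2 : ContinuousOn (fun x => u x - g x) {x | x ∈ Ω ∧ nu u α 1 0 x ≤ t} :=
      (huc.mono fun x hx => hx.1).sub hgc.continuousOn
    exact hcpt.of_isClosed_subset (h2.preimage_isClosed_of_isClosed hcpt.isClosed isClosed_Iic)
      inter_subset_left
  have hmain := hcmp Ω O u g h (fun x hx => hx.1) (sc_gcap α (t - 1) hκ p hOop) hK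
  -- the set of integration
  set A : Set (En n) := {x | x ∈ O ∧ u x < g x} with hA
  have hAO : A ⊆ O := fun x hx => hx.1
  have hAop : IsOpen A := by
    have : ContinuousOn (fun x => u x - g x) O :=
      (huc.mono fun x hx => hx.1).sub hgc.continuousOn
    have h1 := this.isOpen_inter_preimage hOop (isOpen_Iio (a := (0 : ℝ)))
    convert h1 using 1
    ext x
    constructor
    · rintro ⟨h1, h2⟩; exact ⟨h1, by simpa using h2⟩
    · rintro ⟨h1, h2⟩; exact ⟨h1, by simpa using h2⟩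
  have hAfin : volume A ≠ ⊤ := by
    refine ne_top_of_le_ne_top hcpt.measure_lt_top.ne (measure_mono ?_)
    exact fun x hx => ⟨hx.1.1, hx.1.2.le⟩
  have hballA : Metric.ball p ρ ⊆ A := by
    intro x hx
    rw [mem_ball_iff_norm] at hx
    obtain ⟨h1, h2⟩ := hball x hx
    refine ⟨⟨h1, by linarith⟩, (hug' x).2 ?_⟩
    have := hsq0 x
    linarith
  have hleft : ∫ x in A, dt g x ^ (1 / ((n : ℝ) + 2)) =
      (2 * κ) ^ ((n : ℝ) / ((n : ℝ) + 2)) * (volume A).toReal := by
    have h1 : ∀ x ∈ A, dt g x ^ (1 / ((n : ℝ) + 2)) = (2 * κ) ^ ((n : ℝ) / ((n : ℝ) + 2)) := by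
      intro x _
      rw [hg, dt_gcap, ← Real.rpow_natCast, ← Real.rpow_mul (by positivity)]
      congr 1
      ring
    rw [setIntegral_congr_fun hAop.measurableSet h1, setIntegral_const, smul_eq_mul, mul_comm]
    rfl
  rw [hleft] at hmain
  have hvol : (volume (Metric.ball p ρ)).toReal ≤ (volume A).toReal :=
    ENNReal.toReal_mono hAfin (measure_mono hballA)
  have hc0 : 0 ≤ (2 * κ) ^ ((n : ℝ) / ((n : ℝ) + 2)) := by positivity
  have hright : ∫ x in A, dt u x ^ (1 / ((n : ℝ) + 2)) ≤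
      ∫ x in O, dt u x ^ (1 / ((n : ℝ) + 2)) := by
    have hcont : ContinuousOn (fun x => dt u x ^ (1 / ((n : ℝ) + 2)))
        {x | x ∈ Ω ∧ nu u α 1 0 x ≤ t} := by
      intro x hx
      have h1 : ContinuousWithinAt (dt u) {x | x ∈ Ω ∧ nu u α 1 0 x ≤ t} x :=
        ((continuousOn_dt h.toSC) x hx.1).mono fun y hy => hy.1
      exact h1.rpow_const (Or.inl (h.pos x hx.1).det_pos.ne')
    have hint : IntegrableOn (fun x => dt u x ^ (1 / ((n : ℝ) + 2))) O volume :=
      (hcont.integrableOn_compact hcpt).mono_set fun x hx => ⟨hx.1, hx.2.le⟩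
    refine setIntegral_mono_set hint ?_ (Eventually.of_forall hAO)
    rw [EventuallyLE, ae_restrict_iff' hOop.measurableSet]
    refine Eventually.of_forall fun x hx => ?_
    exact Real.rpow_nonneg (h.pos x hx.1).det_pos.le _
  calc (2 * κ) ^ ((n : ℝ) / ((n : ℝ) + 2)) * (volume (Metric.ball p ρ)).toReal
      ≤ (2 * κ) ^ ((n : ℝ) / ((n : ℝ) + 2)) * (volume A).toReal := by gcongr
    _ ≤ ∫ x in A, dt u x ^ (1 / ((n : ℝ) + 2)) := hmain
    _ ≤ _ := hright

end Vale.Agent.P252.H651
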