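import Mathlib
import Vale.Agent.P252.R.Spec
import Vale.Agent.P252.H651.Area

/-! The affine area of the cap of a wedge approximant is bounded below (helper651). -/

open Matrix Filter Set MeasureTheory
open scoped ContDiff Topology

namespace Vale.Agent.P252.H651

open Vale.Agent.P252.R Vale.Agent.P252.H429

variable {n : ℕ}

lemma close_mono' {V : Type*} [SeminormedAddCommGroup V] {R R' ε ε' : ℝ} {K K' : Set V}
    (h : Close R ε K K') (hR : R' ≤ R) (hε : ε ≤ ε') : Close R' ε' K K' := by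
  refine ⟨fun p hp hpR => ?_, fun p hp hpR => ?_⟩
  · obtain ⟨q, hq, hpq⟩ := h.1 p hp (hpR.trans hR)
    exact ⟨q, hq, hpq.trans hε⟩
  · obtain ⟨q, hq, hpq⟩ := h.2 p hp (hpR.trans hR)
    exact ⟨q, hq, hpq.trans hε⟩

/-- Coefficients of the arm coordinates. -/
noncomputable def armw (n k : ℕ) : Fin n → ℝ := fun i => if i.val < k then 1 else 0

lemma sum_armw_le (k : ℕ) (f : Fin n → ℝ) {c : ℝ} (hc : 0 ≤ c)
    (hf : ∀ i : Fin n, i.val < k → f i ≤ c) : ∑ i, armw n k i * f i ≤ k * c := by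
  classical
  have h1 : ∑ i, armw n k i * f i ≤ ∑ i : Fin n, if i.val < k then c else 0 := by
    refine Finset.sum_le_sum fun i _ => ?_
    unfold armw
    by_cases hi : i.val < k
    · simp [hi, hf i hi]
    · simp [hi]
  refine h1.trans ?_
  rw [← Finset.sum_filter, Finset.sum_const, nsmul_eq_mul]
  have h2 : ((Finset.univ.filter fun i : Fin n => i.val < k).card : ℝ) ≤ k := by
    have : (Finset.univ.filter fun i : Fin n => i.val < k).card ≤ k := by
      have h3 : (Finset.univ.filter fun i : Fin n => i.val < k).card ≤ (Finset.range k).card := by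
        refine Finset.card_le_card_of_injOn (fun i => i.val) ?_ ?_
        · intro i hi
          simpa using hi
        · intro i _ j _ hij
          exact Fin.ext hij
      simpa using h3
    exact_mod_cast this
  exact mul_le_mul_of_nonneg_right h2 hc

/-- Area lower bound for the approximants of wedges. `hcap` is the compactness of the caps. -/
theorem areaLow_of {k : ℕ} (hcmp : Stmt_compare n) (hball : Stmt_approxBall n k) (C1 : ℝ)
    (hC1 : 0 ≤ C1)
    (hcap : ∃ R ε : ℝ, 0 < R ∧ 0 < ε ∧ ∀ K, Wedge n k K → ∀ (Ω : Set (En n)) (u : En n → ℝ),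
      AMC Ω u → Close R ε K (epi Ω u) →
      IsCompact {x | x ∈ Ω ∧ nu u (armw n k) 1 0 x ≤ k + 3} ∧
      ∀ x ∈ Ω, nu u (armw n k) 1 0 x ≤ k + 3 → ∀ i, |x i| ≤ C1)
    (hP : P1 n k) : ∃ R ε c : ℝ, 0 < R ∧ 0 < ε ∧ 0 < c ∧ ∀ K, Wedge n k K →
      ∀ (Ω : Set (En n)) (u : En n → ℝ), AMC Ω u → Close R ε K (epi Ω u) →
      c ≤ ∫ x in {x | x ∈ Ω ∧ nu u (armw n k) 1 0 x < k + 3}, dt u x ^ (1 / ((n : ℝ) + 2)) := by
  obtain ⟨R₁, ε₁, hR₁, hε₁, hcap⟩ := hcap
  obtain ⟨c₀, hc₀, hb⟩ := hball hP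
  obtain ⟨R₂, ε₂, hR₂, hε₂, hb⟩ := hb 2 (1 / 2) (by norm_num) (by norm_num) (by norm_num)
  set κ : ℝ := 1 / (2 * (n + 1) * (C1 + 1) ^ 2) with hκ
  have hκ0 : 0 < κ := by positivity
  set ρ : ℝ := min (1 / (2 * (k + 1))) (c₀ / 2) with hρ
  have hρ0 : 0 < ρ := lt_min (by positivity) (by positivity)
  set p : En n := ones n k with hp
  have hvol : 0 < (volume (Metric.ball p ρ)).toReal :=
    ENNReal.toReal_pos (Metric.measure_ball_pos volume p hρ0).ne' measure_ball_lt_top.ne
  refine ⟨max R₁ R₂, min ε₁ ε₂, (2 * κ) ^ ((n : ℝ) / ((n : ℝ) + 2)) *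
    (volume (Metric.ball p ρ)).toReal, lt_max_of_lt_left hR₁, lt_min hε₁ hε₂,
    mul_pos (by positivity) hvol, ?_⟩
  intro K hK Ω u hu hcl
  have hcl1 : Close R₁ ε₁ K (epi Ω u) := close_mono' hcl (le_max_left _ _) (min_le_left _ _)
  have hcl2 : Close R₂ ε₂ K (epi Ω u) := close_mono' hcl (le_max_right _ _) (min_le_right _ _)
  obtain ⟨hcpt, hbd⟩ := hcap K hK Ω u hu hcl1
  refine area_core hcmp hu.toAMLoc (armw n k) p hκ0 hcpt ?_ ?_
  · intro x hx hxt
    have h1 : ∑ i, (x i - p i) ^ 2 ≤ ∑ _i : Fin n, (C1 + 1) ^ 2 := by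
      refine Finset.sum_le_sum fun i _ => ?_
      have h2 := hbd x hx hxt i
      have h3 : |p i| ≤ 1 := by
        rw [hp]; unfold ones
        simp only
        split_ifs <;> simp
      have h4 : |x i - p i| ≤ C1 + 1 := (abs_sub _ _).trans (add_le_add h2 h3)
      exact sq_le_sq' (by linarith [(abs_le.1 h4).1]) (abs_le.1 h4).2
    rw [Finset.sum_const, Finset.card_univ, Fintype.card_fin, nsmul_eq_mul] at h1
    calc κ * ∑ i, (x i - p i) ^ 2 ≤ κ * (n * (C1 + 1) ^ 2) := by gcongr
      _ ≤ 1 / 2 := by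
        rw [hκ, one_div_mul_eq_div, div_le_div_iff₀ (by positivity) (by norm_num)]
        nlinarith [sq_nonneg (C1 + 1)]
  · intro x hx
    have hcoord : ∀ i, |x i - p i| < ρ := by
      intro i
      have h1 : |(x - p) i| ≤ ‖x - p‖ := by
        have := PiLp.norm_apply_le (x - p) i
        simpa using this
      have h2 : (x - p) i = x i - p i := rfl
      rw [h2] at h1
      exact h1.trans_lt hx
    have hρ1 : ρ ≤ 1 / (2 * (k + 1)) := min_le_left _ _
    have hρ2 : ρ ≤ c₀ / 2 := min_le_right _ _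
    have hk0 : (0 : ℝ) ≤ k := Nat.cast_nonneg k
    have hρ3 : ρ ≤ 1 / 2 := by
      refine hρ1.trans ?_
      rw [div_le_div_iff₀ (by positivity) (by norm_num)]
      linarith
    have harm : ∀ i : Fin n, i.val < k → |x i - 1| < ρ := by
      intro i hi
      have h1 := hcoord i
      have h2 : p i = 1 := by rw [hp]; simp [ones, hi]
      rwa [h2] at h1
    have htr : ∀ i : Fin n, k ≤ i.val → |x i| < ρ := by
      intro i hi
      have h1 := hcoord i
      have h2 : p i = 0 := by rw [hp]; simp [ones, not_lt.2 hi]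
      rwa [h2, sub_zero] at h1
    have hmem : ((x, (1 : ℝ)) : En n × ℝ) ∈ epi Ω u := by
      refine hb K hK Ω u hu hcl2 (x, 1) (by norm_num) (by norm_num) ?_ ?_
      · intro i hi
        have := abs_lt.1 (harm i hi)
        constructor <;> simp only <;> linarith
      · intro j hj
        have := htr j hj
        simp only
        linarith
    refine ⟨hmem.1, ?_⟩
    have hu1 : u x ≤ 1 := hmem.2
    have hsum : ∑ i, armw n k i * x i ≤ k * (1 + ρ) := by
      refine sum_armw_le k (fun i => x i) (by positivity) fun i hi => ?_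
      have := abs_lt.1 (harm i hi)
      linarith
    have hkρ : (k : ℝ) * ρ ≤ 1 / 2 := by
      calc (k : ℝ) * ρ ≤ k * (1 / (2 * (k + 1))) := by gcongr
        _ ≤ 1 / 2 := by
          rw [mul_one_div, div_le_div_iff₀ (by positivity) (by norm_num)]
          linarith
    unfold nu
    nlinarith

end Vale.Agent.P252.H651
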