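import Mathlib
import Vale.Agent.P252.R.Spec
import Vale.Agent.P252.H651.AreaLow
import Vale.Agent.P252.H889.Cap

/-! The affine area of the cap of a wedge approximant is bounded below: final form (helper651). -/

open Matrix Filter Set MeasureTheory
open scoped ContDiff Topology

namespace Vale.Agent.P252.H651

open Vale.Agent.P252.R Vale.Agent.P252.H889

variable {n : ℕ}

/-- Area lower bound for the approximants of wedges. -/
theorem areaLow {k : ℕ} (hcmp : Stmt_compare n) (h1 : Stmt_approxBox n k)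
    (h2 : Stmt_approxBall n k) (hP : P1 n k) :
    ∃ R ε c : ℝ, 0 < R ∧ 0 < ε ∧ 0 < c ∧ ∀ K, Wedge n k K →
      ∀ (Ω : Set (En n)) (u : En n → ℝ), AMC Ω u → Close R ε K (epi Ω u) →
      c ≤ ∫ x in {x | x ∈ Ω ∧ nu u (armv k) 1 0 x < k + 3}, dt u x ^ (1 / ((n : ℝ) + 2)) := by
  have hk0 : (0 : ℝ) ≤ k := Nat.cast_nonneg k
  set T : ℝ := 2 * k + 10 with hT
  have hT1 : 1 < T := by linarith
  refine areaLow_of (k := k) hcmp h2 (T + 1) (by linarith) ?_ hP
  obtain ⟨c, hc, happ⟩ := exists_appr h1 h2 hP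
  obtain ⟨R, ε, hR, hε, happ⟩ := happ T (1 / 2) hT1.le (by norm_num) (by norm_num)
  refine ⟨R, ε, hR, hε, fun K hK Ω u hu hcl => ?_⟩
  have hA := happ K hK Ω u hu hcl
  have hconv := amc_convex_epi hu
  -- base point
  have hp₀ : ((ones n k, (1 : ℝ)) : En n × ℝ) ∈ epi Ω u := by
    refine hA.ball (ones n k, 1) (by norm_num) hT1.le ?_ ?_
    · intro i hi
      have : (ones n k) i = 1 := by simp [ones, hi]
      simp only [this]
      constructor <;> linarith
    · intro j hj
      have : (ones n k) j = 0 := by simp [ones, not_lt.2 hj]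
      simp only [this, abs_zero]
      positivity
  have hsum1 : ∑ i, armw n k i * (ones n k) i ≤ k := by
    have := sum_armw_le k (fun i => (ones n k) i) (c := 1) zero_le_one (fun i hi => by
      have : (ones n k) i = 1 := by simp [ones, hi]
      rw [this])
    simpa using this
  have hsum2 : ∑ i, armw n k i ≤ k := by
    have := sum_armw_le k (fun _ : Fin n => (1 : ℝ)) (c := 1) zero_le_one (fun i hi => le_rfl)
    simpa using this
  have hα1 : ∀ i : Fin n, i.val < k → 1 ≤ armw n k i := by
    intro i hi; simp [armw, hi]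
  have hα0 : ∀ i : Fin n, k ≤ i.val → armw n k i = 0 := by
    intro i hi; simp [armw, not_lt.2 hi]
  have hA2 : (1 / 2 : ℝ) * (∑ i, armw n k i + 1) ≤ (k + 1) / 2 := by linarith
  have hTs : ((k : ℝ) + 3) + (k + 1) / 2 + 1 < T := by rw [hT]; linarith
  have h0x : ∀ i : Fin n, i.val < k → 0 ≤ (ones n k) i := by
    intro i hi
    have : (ones n k) i = 1 := by simp [ones, hi]
    rw [this]; norm_num
  have h0x' : ∀ i : Fin n, i.val < k → (ones n k) i ≤ 1 := by
    intro i hi
    have : (ones n k) i = 1 := by simp [ones, hi]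
    rw [this]
  have h0 : ∑ i, armw n k i * (ones n k) i + 1 * 1 ≤ (k : ℝ) + 3 := by linarith
  refine ⟨?_, ?_⟩
  · exact isCompact_nu hu.cl hconv hA.box (by norm_num) (by linarith) hT1 hα1 hα0 le_rfl hA2 hTs
      hp₀ (by norm_num) le_rfl h0x h0x' h0 (by simp)
  · intro x hx hxt i
    have hb := cap_bound hconv hA.box (by norm_num) hT1 hα1 hα0 le_rfl hA2 hTs hp₀ (by norm_num)
      le_rfl h0x h0x' h0 (x, u x) ⟨hx, le_rfl⟩ (by simp only [nu] at hxt; simp only; linarith)
    by_cases hi : i.val < k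
    · have := hb.2.1 i hi
      simp only at this
      rw [abs_le]
      constructor <;> linarith [this.1, this.2]
    · exact hb.2.2 i (not_lt.1 hi)

end Vale.Agent.P252.H651
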