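import Mathlib

open Matrix

namespace Vale.Agent.P252.H651

open scoped MatrixOrder in
theorem exists_factor {n : ℕ} {A : Matrix (Fin n) (Fin n) ℝ} (hA : A.PosSemidef) :
    ∃ M : Matrix (Fin n) (Fin n) ℝ, A = Mᴴ * M := by
  obtain ⟨M, hM⟩ := (CStarAlgebra.nonneg_iff_eq_star_mul_self).1 hA.nonneg
  exact ⟨M, hM⟩

theorem trace_factor {n : ℕ} (M B : Matrix (Fin n) (Fin n) ℝ) :
    (Mᴴ * M * B).trace = (M * B * Mᴴ).trace := by
  rw [Matrix.mul_assoc, Matrix.trace_mul_comm]

/-- Arithmetic-geometric inequality: if `A`, `B` are positive definite with equal determinants then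
`n ≤ tr(A⁻¹ B)`. -/
theorem card_le_trace_inv_mul {n : ℕ} {A B : Matrix (Fin n) (Fin n) ℝ} (hA : A.PosDef)
    (hB : B.PosDef) (h : B.det = A.det) : (n : ℝ) ≤ (A⁻¹ * B).trace := by
  obtain ⟨M, hM⟩ := exists_factor hA.inv.posSemidef
  have hC : (M * B * Mᴴ).PosSemidef := hB.posSemidef.mul_mul_conjTranspose_same M
  have hdet : (M * B * Mᴴ).det = 1 := by
    have h1 : (Mᴴ * M).det = (A.det)⁻¹ := by rw [← hM, Matrix.det_nonsing_inv, Ring.inverse_eq_inv']
    rw [Matrix.det_mul, Matrix.det_mul]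
    rw [Matrix.det_mul] at h1
    have h2 : A.det ≠ 0 := hA.det_pos.ne'
    calc M.det * B.det * Mᴴ.det = (Mᴴ.det * M.det) * B.det := by ring
      _ = 1 := by rw [h1, h]; field_simp
  have htr : (A⁻¹ * B).trace = (M * B * Mᴴ).trace := by
    rw [hM, trace_factor]
  rw [htr]
  have hH := hC.isHermitian
  have h1 : (M * B * Mᴴ).trace = ∑ i, hH.eigenvalues i := by
    have := hH.trace_eq_sum_eigenvalues
    simpa using this
  have h2 : (M * B * Mᴴ).det = ∏ i, hH.eigenvalues i := by
    have := hH.det_eq_prod_eigenvalues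
    simpa using this
  have hnn : ∀ i, 0 ≤ hH.eigenvalues i := fun i => hC.eigenvalues_nonneg i
  have hpos : ∀ i, 0 < hH.eigenvalues i := by
    intro i
    rcases (hnn i).lt_or_eq with h | h
    · exact h
    · exfalso
      rw [hdet] at h2
      have : ∏ i, hH.eigenvalues i = 0 := Finset.prod_eq_zero (Finset.mem_univ i) h.symm
      rw [this] at h2
      exact one_ne_zero h2
  have h3 : Real.log (∏ i, hH.eigenvalues i) = ∑ i, Real.log (hH.eigenvalues i) :=
    Real.log_prod (fun i _ => (hpos i).ne')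
  rw [← h2, hdet, Real.log_one] at h3
  rw [h1]
  have h4 : ∑ i, Real.log (hH.eigenvalues i) ≤ ∑ i, (hH.eigenvalues i - 1) :=
    Finset.sum_le_sum fun i _ => Real.log_le_sub_one_of_pos (hpos i)
  rw [← h3, Finset.sum_sub_distrib, Finset.sum_const, Finset.card_univ, Fintype.card_fin,
    nsmul_eq_mul, mul_one] at h4
  linarith

/-- If `B ≤ A` in the sense of quadratic forms, both positive definite with the same determinant,
then `B = A`. -/
theorem eq_of_le_of_det_eq {n : ℕ} {A B : Matrix (Fin n) (Fin n) ℝ} (hA : A.PosDef)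
    (hB : B.PosDef) (hle : (A - B).PosSemidef) (h : B.det = A.det) : B = A := by
  obtain ⟨M, hM⟩ := exists_factor hA.inv.posSemidef
  have hAd : A.det ≠ 0 := hA.det_pos.ne'
  have hAu : IsUnit A.det := isUnit_iff_ne_zero.2 hAd
  have h1 := card_le_trace_inv_mul hA hB h
  have h2 : (A⁻¹ * (A - B)).trace = n - (A⁻¹ * B).trace := by
    rw [Matrix.mul_sub, Matrix.trace_sub, Matrix.nonsing_inv_mul _ hAu, Matrix.trace_one]
    simp
  have hC : (M * (A - B) * Mᴴ).PosSemidef := hle.mul_mul_conjTranspose_same M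
  have h3 : (A⁻¹ * (A - B)).trace = (M * (A - B) * Mᴴ).trace := by rw [hM, trace_factor]
  have h4 : 0 ≤ (M * (A - B) * Mᴴ).trace := hC.trace_nonneg
  have h5 : (M * (A - B) * Mᴴ).trace = 0 := by
    apply le_antisymm _ h4
    rw [← h3, h2]; linarith
  have h6 := hC.trace_eq_zero_iff.1 h5
  have hMdet : M.det ≠ 0 := by
    intro h0
    have : (A⁻¹).det = 0 := by rw [hM, Matrix.det_mul, h0, mul_zero]
    rw [Matrix.det_nonsing_inv, Ring.inverse_eq_inv'] at this
    exact inv_ne_zero hAd this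
  have hMu : IsUnit M.det := isUnit_iff_ne_zero.2 hMdet
  have hMTu : IsUnit (Mᴴ).det := by
    rw [Matrix.det_conjTranspose]; simpa using hMdet
  have h7 : A - B = 0 := by
    calc A - B = M⁻¹ * (M * (A - B) * Mᴴ) * (Mᴴ)⁻¹ := by
          rw [Matrix.mul_assoc M, ← Matrix.mul_assoc M⁻¹, Matrix.nonsing_inv_mul _ hMu,
            Matrix.one_mul, Matrix.mul_assoc, Matrix.mul_nonsing_inv _ hMTu, Matrix.mul_one]
      _ = 0 := by rw [h6]; simp
  exact (sub_eq_zero.1 h7).symm

end Vale.Agent.P252.H651
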