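import Mathlib
import Vale.Agent.P252.BernsteinDefs
import Vale.Agent.P252.H651.LinAlg

open Matrix Filter
open scoped ContDiff Topology

namespace Vale.Agent.P252.H651

/-- The value at `e` of the quadratic form of the Hessian of `u` at `x`. -/
noncomputable def hq {n : ℕ} (u : EuclideanSpace ℝ (Fin n) → ℝ) (e : Fin n → ℝ)
    (x : EuclideanSpace ℝ (Fin n)) : ℝ :=
  ∑ i, ∑ j, hess u x i j * e i * e j

theorem fderiv_apply_eq_sum {n : ℕ} (f : EuclideanSpace ℝ (Fin n) → ℝ)
    (x v : EuclideanSpace ℝ (Fin n)) : fderiv ℝ f x v = ∑ i, v i * pd i f x := by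
  have hv : v = ∑ i, v i • EuclideanSpace.single i (1 : ℝ) := by
    ext j
    simp [Finset.sum_apply, Pi.single_apply]
  conv_lhs => rw [hv]
  rw [map_sum]
  simp [pd]

theorem hess_isHermitian {n : ℕ} {u : EuclideanSpace ℝ (Fin n) → ℝ}
    {x : EuclideanSpace ℝ (Fin n)} (h : (hess u x).PosDef) (i j : Fin n) :
    hess u x i j = hess u x j i := by
  have := h.isHermitian.apply j i
  simpa using this

theorem sum_polar {n : ℕ} (H : Matrix (Fin n) (Fin n) ℝ) (hs : ∀ i j, H i j = H j i)
    (i j : Fin n) :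
    H i j = ((∑ a, ∑ b, H a b * (Pi.single i 1 + Pi.single j 1 : Fin n → ℝ) a *
        (Pi.single i 1 + Pi.single j 1 : Fin n → ℝ) b) -
      (∑ a, ∑ b, H a b * (Pi.single i 1 - Pi.single j 1 : Fin n → ℝ) a *
        (Pi.single i 1 - Pi.single j 1 : Fin n → ℝ) b)) / 4 := by
  have key : ∀ s : ℝ, (∑ a, ∑ b, H a b * (Pi.single i 1 + s • Pi.single j 1 : Fin n → ℝ) a *
        (Pi.single i 1 + s • Pi.single j 1 : Fin n → ℝ) b) =
        H i i + s * H i j + s * H j i + s * s * H j j := by
    intro s
    simp only [Pi.add_apply, Pi.smul_apply, smul_eq_mul, mul_add, add_mul, Finset.sum_add_distrib]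
    simp [Pi.single_apply]
    ring
  have h1 := key 1
  have h2 := key (-1)
  simp only [one_smul] at h1
  have h3 : (Pi.single i 1 + (-1 : ℝ) • Pi.single j 1 : Fin n → ℝ) =
      Pi.single i 1 - Pi.single j 1 := by
    rw [neg_one_smul, sub_eq_add_neg]
  rw [h3] at h2
  rw [h1, h2, hs j i]
  ring

/-- A function with constant positive definite Hessian is an elliptic paraboloid. -/
theorem paraboloid_of_hess_const {n : ℕ} {u : EuclideanSpace ℝ (Fin n) → ℝ}
    (hu : ContDiff ℝ ∞ u) {A : Matrix (Fin n) (Fin n) ℝ} (hA : A.PosDef)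
    (h : ∀ x, hess u x = A) : IsEllipticParaboloid u := by
  have hAs : ∀ i j, A i j = A j i := by
    intro i j
    have := hA.isHermitian.apply j i
    simpa using this
  have hpd : ∀ j, ContDiff ℝ ∞ (pd j u) := by
    intro j
    have h1 : ContDiff ℝ ∞ (fun x => fderiv ℝ u x) := hu.fderiv_right (m := ∞) (by simp)
    exact h1.clm_apply contDiff_const
  have hlin : ∀ j, ∃ b : ℝ, ∀ x, pd j u x = (∑ i, A i j * x i) + b := by
    intro j
    have hd : Differentiable ℝ (fun x : EuclideanSpace ℝ (Fin n) => ∑ i, A i j * x i) := by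
      fun_prop
    have hd2 : Differentiable ℝ (pd j u) := (hpd j).differentiable (by simp)
    have hz : ∀ x, fderiv ℝ (fun x : EuclideanSpace ℝ (Fin n) =>
        pd j u x - ∑ i, A i j * x i) x = 0 := by
      intro x
      ext v
      have e1 : fderiv ℝ (fun x : EuclideanSpace ℝ (Fin n) =>
        pd j u x - ∑ i, A i j * x i) x v = fderiv ℝ (pd j u) x v -
          fderiv ℝ (fun x : EuclideanSpace ℝ (Fin n) => ∑ i, A i j * x i) x v := by
        rw [fderiv_fun_sub (hd2 x) (hd x)]; rfl
      rw [e1, fderiv_apply_eq_sum]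
      have e2 : fderiv ℝ (fun x : EuclideanSpace ℝ (Fin n) => ∑ i, A i j * x i) x v =
          ∑ i, A i j * v i := by
        have : HasFDerivAt (fun x : EuclideanSpace ℝ (Fin n) => ∑ i, A i j * x i)
            (∑ i, A i j • (EuclideanSpace.proj i : EuclideanSpace ℝ (Fin n) →L[ℝ] ℝ)) x := by
          apply HasFDerivAt.fun_sum
          intro i _
          exact ((EuclideanSpace.proj i : EuclideanSpace ℝ (Fin n) →L[ℝ] ℝ).hasFDerivAt).const_mul
            (A i j)
        rw [this.fderiv]
        simp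
      rw [e2]
      have e3 : ∀ i, pd i (pd j u) x = A i j := by
        intro i
        have := congrFun (congrFun (h x) i) j
        simpa [hess] using this
      simp only [e3]
      simp [mul_comm]
    have hconst := is_const_of_fderiv_eq_zero (𝕜 := ℝ) (hd2.sub hd) hz
    refine ⟨pd j u 0, fun x => ?_⟩
    have := hconst x 0
    simp at this
    linarith
  choose b hb using hlin
  have hQd : Differentiable ℝ (fun x : EuclideanSpace ℝ (Fin n) =>
      (∑ i, ∑ j, A i j * x i * x j) / 2 + ∑ i, b i * x i) := by fun_prop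
  have hud : Differentiable ℝ u := hu.differentiable (by simp)
  have hz : ∀ x, fderiv ℝ (fun x : EuclideanSpace ℝ (Fin n) =>
      u x - ((∑ i, ∑ j, A i j * x i * x j) / 2 + ∑ i, b i * x i)) x = 0 := by
    intro x
    ext v
    rw [fderiv_fun_sub (hud x) (hQd x)]
    have e0 : (fderiv ℝ u x - fderiv ℝ (fun x : EuclideanSpace ℝ (Fin n) =>
      (∑ i, ∑ j, A i j * x i * x j) / 2 + ∑ i, b i * x i) x) v = fderiv ℝ u x v -
        fderiv ℝ (fun x : EuclideanSpace ℝ (Fin n) =>
      (∑ i, ∑ j, A i j * x i * x j) / 2 + ∑ i, b i * x i) x v := rfl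
    rw [e0, fderiv_apply_eq_sum]
    have e1 : HasFDerivAt (fun x : EuclideanSpace ℝ (Fin n) =>
      (∑ i, ∑ j, A i j * x i * x j) / 2 + ∑ i, b i * x i)
      ((2:ℝ)⁻¹ • (∑ i, ∑ j, ((A i j * x i) •
          (EuclideanSpace.proj j : EuclideanSpace ℝ (Fin n) →L[ℝ] ℝ) +
        x j • (A i j • (EuclideanSpace.proj i : EuclideanSpace ℝ (Fin n) →L[ℝ] ℝ))))
        + ∑ i, b i • (EuclideanSpace.proj i : EuclideanSpace ℝ (Fin n) →L[ℝ] ℝ)) x := by
      refine HasFDerivAt.fun_add ?_ ?_
      · have h2 : (fun x : EuclideanSpace ℝ (Fin n) => (∑ i, ∑ j, A i j * x i * x j) / 2) =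
            fun x => (2:ℝ)⁻¹ * (∑ i, ∑ j, A i j * x i * x j) := by
          funext x; ring
        rw [h2]
        refine HasFDerivAt.const_mul ?_ _
        refine HasFDerivAt.fun_sum fun i _ => HasFDerivAt.fun_sum fun j _ => ?_
        exact (((EuclideanSpace.proj i : EuclideanSpace ℝ (Fin n) →L[ℝ] ℝ).hasFDerivAt).const_mul
            (A i j)).mul ((EuclideanSpace.proj j : EuclideanSpace ℝ (Fin n) →L[ℝ] ℝ).hasFDerivAt)
      · refine HasFDerivAt.fun_sum fun i _ => ?_
        exact ((EuclideanSpace.proj i : EuclideanSpace ℝ (Fin n) →L[ℝ] ℝ).hasFDerivAt).const_mul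
            (b i)
    rw [e1.fderiv]
    have e4 : (∑ i, ∑ j, (x j * (A i j * v i))) = ∑ i, ∑ j, A i j * x i * v j := by
      rw [Finset.sum_comm]
      refine Finset.sum_congr rfl fun i _ => Finset.sum_congr rfl fun j _ => ?_
      rw [hAs j i]; ring
    have e5 : (((2:ℝ)⁻¹ • (∑ i, ∑ j, ((A i j * x i) •
          (EuclideanSpace.proj j : EuclideanSpace ℝ (Fin n) →L[ℝ] ℝ) +
        x j • (A i j • (EuclideanSpace.proj i : EuclideanSpace ℝ (Fin n) →L[ℝ] ℝ))))
        + ∑ i, b i • (EuclideanSpace.proj i : EuclideanSpace ℝ (Fin n) →L[ℝ] ℝ)) v) =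
        2⁻¹ * ((∑ i, ∑ j, A i j * x i * v j) + (∑ i, ∑ j, (x j * (A i j * v i)))) +
          ∑ i, b i * v i := by
      simp [Finset.sum_add_distrib, mul_add]
    rw [e5, e4]
    simp only [hb]
    have e6 : ∑ j, v j * ((∑ i, A i j * x i) + b j) =
        (∑ i, ∑ j, A i j * x i * v j) + ∑ i, b i * v i := by
      simp only [mul_add, Finset.sum_add_distrib, Finset.mul_sum]
      rw [Finset.sum_comm]
      congr 1
      · refine Finset.sum_congr rfl fun i _ => Finset.sum_congr rfl fun j _ => ?_
        ring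
      · refine Finset.sum_congr rfl fun i _ => ?_
        ring
    rw [e6]
    simp
    ring
  have hconst := is_const_of_fderiv_eq_zero (𝕜 := ℝ) (hud.sub hQd) hz
  refine ⟨A, b, u 0, hA, fun x => ?_⟩
  have := hconst x 0
  simp at this
  linarith

/-- The end game of the Jörgens-Calabi-Pogorelov argument. `K e` is an upper bound of `u_ee`; for
finitely many directions the bounds are almost attained at a common point; `det D²u` is constant.
Then `u` is an elliptic paraboloid. -/
theorem endgame {n : ℕ} {u : EuclideanSpace ℝ (Fin n) → ℝ} (hu : ContDiff ℝ ∞ u)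
    (hpos : ∀ x, (hess u x).PosDef) (c : ℝ) (hdet : ∀ x, (hess u x).det = c)
    (K : (Fin n → ℝ) → ℝ) (hK : ∀ e x, hq u e x ≤ K e)
    (hgood : ∀ (F : Finset (Fin n → ℝ)) (δ : ℝ), 0 < δ → ∃ x, ∀ e ∈ F, K e - δ < hq u e x) :
    IsEllipticParaboloid u := by
  classical
  set A : Matrix (Fin n) (Fin n) ℝ := Matrix.of fun i j =>
    (K (Pi.single i 1 + Pi.single j 1) - K (Pi.single i 1 - Pi.single j 1)) / 4 with hA
  -- good points
  have hgood2 : ∀ (e : Fin n → ℝ) (δ : ℝ), 0 < δ → ∃ x, |K e - hq u e x| < δ ∧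
      ∀ i j, |A i j - hess u x i j| < δ := by
    intro e δ hδ
    obtain ⟨x, hx⟩ := hgood (insert e (Finset.univ.image (fun p : Fin n × Fin n =>
      (Pi.single p.1 1 + Pi.single p.2 1 : Fin n → ℝ)) ∪ Finset.univ.image
        (fun p : Fin n × Fin n => (Pi.single p.1 1 - Pi.single p.2 1 : Fin n → ℝ)))) δ hδ
    refine ⟨x, ?_, fun i j => ?_⟩
    · have h1 := hx e (Finset.mem_insert_self _ _)
      have h2 := hK e x
      rw [abs_lt]; constructor <;> linarith
    · have h1 := hx (Pi.single i 1 + Pi.single j 1) (Finset.mem_insert_of_mem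
        (Finset.mem_union_left _ (Finset.mem_image.2 ⟨(i, j), Finset.mem_univ _, rfl⟩)))
      have h2 := hx (Pi.single i 1 - Pi.single j 1) (Finset.mem_insert_of_mem
        (Finset.mem_union_right _ (Finset.mem_image.2 ⟨(i, j), Finset.mem_univ _, rfl⟩)))
      have h3 := hK (Pi.single i 1 + Pi.single j 1) x
      have h4 := hK (Pi.single i 1 - Pi.single j 1) x
      have h5 : hess u x i j = (hq u (Pi.single i 1 + Pi.single j 1) x -
          hq u (Pi.single i 1 - Pi.single j 1) x) / 4 :=
        sum_polar (hess u x) (hess_isHermitian (hpos x)) i j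
      have h6 : A i j = (K (Pi.single i 1 + Pi.single j 1) -
        K (Pi.single i 1 - Pi.single j 1)) / 4 := rfl
      rw [h5, h6, abs_lt]
      constructor <;> linarith
  have hAs : ∀ i j, A i j = A j i := by
    intro i j
    by_contra hne
    obtain ⟨x, -, hx⟩ := hgood2 0 (|A i j - A j i| / 2) (by
      have : 0 < |A i j - A j i| := abs_pos.2 (sub_ne_zero.2 hne)
      linarith)
    have h1 := hx i j
    have h2 := hx j i
    rw [hess_isHermitian (hpos x) j i] at h2
    have h3 : |A i j - A j i| ≤ |A i j - hess u x i j| + |A j i - hess u x i j| := by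
      have := abs_sub_le (A i j) (hess u x i j) (A j i)
      rw [abs_sub_comm (hess u x i j) (A j i)] at this
      exact this
    linarith
  -- the quadratic form of `A` is `K`
  have hKA : ∀ e, K e = ∑ i, ∑ j, A i j * e i * e j := by
    intro e
    set S := ∑ i, ∑ j, |e i * e j| with hS
    have hS0 : 0 ≤ S := Finset.sum_nonneg fun i _ => Finset.sum_nonneg fun j _ => abs_nonneg _
    refine eq_of_forall_dist_le fun ε hε => ?_
    obtain ⟨x, h1, h2⟩ := hgood2 e (ε / (1 + S)) (by positivity)
    rw [Real.dist_eq]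
    have h3 : |hq u e x - ∑ i, ∑ j, A i j * e i * e j| ≤ (ε / (1 + S)) * S := by
      have : hq u e x - ∑ i, ∑ j, A i j * e i * e j =
          ∑ i, ∑ j, (hess u x i j - A i j) * (e i * e j) := by
        rw [hq, ← Finset.sum_sub_distrib]
        refine Finset.sum_congr rfl fun i _ => ?_
        rw [← Finset.sum_sub_distrib]
        refine Finset.sum_congr rfl fun j _ => ?_
        ring
      rw [this, hS, Finset.mul_sum]
      refine (Finset.abs_sum_le_sum_abs _ _).trans (Finset.sum_le_sum fun i _ => ?_)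
      rw [Finset.mul_sum]
      refine (Finset.abs_sum_le_sum_abs _ _).trans (Finset.sum_le_sum fun j _ => ?_)
      rw [abs_mul]
      refine mul_le_mul_of_nonneg_right ?_ (abs_nonneg _)
      rw [abs_sub_comm]
      exact (h2 i j).le
    calc |K e - ∑ i, ∑ j, A i j * e i * e j|
        ≤ |K e - hq u e x| + |hq u e x - ∑ i, ∑ j, A i j * e i * e j| := abs_sub_le _ _ _
      _ ≤ ε / (1 + S) + (ε / (1 + S)) * S := add_le_add h1.le h3
      _ = ε := by field_simp
  -- `det A = c`
  have hdetA : A.det = c := by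
    have hseq : ∀ k : ℕ, ∃ x, ∀ i j, |A i j - hess u x i j| < 1 / ((k : ℝ) + 1) := by
      intro k
      obtain ⟨x, -, hx⟩ := hgood2 0 (1 / ((k : ℝ) + 1)) (by positivity)
      exact ⟨x, hx⟩
    choose xs hxs using hseq
    have hlim : Tendsto (fun k => hess u (xs k)) atTop (𝓝 A) := by
      refine tendsto_pi_nhds.2 fun i => tendsto_pi_nhds.2 fun j => ?_
      rw [tendsto_iff_dist_tendsto_zero]
      refine squeeze_zero (fun _ => dist_nonneg) (fun k => ?_)
        tendsto_one_div_add_atTop_nhds_zero_nat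
      rw [dist_comm, Real.dist_eq]
      exact (hxs k i j).le
    have hcont : Continuous (fun M : Matrix (Fin n) (Fin n) ℝ => M.det) :=
      Continuous.matrix_det continuous_id
    have h1 := (hcont.tendsto A).comp hlim
    have h2 : (fun M : Matrix (Fin n) (Fin n) ℝ => M.det) ∘ (fun k => hess u (xs k)) =
        fun _ => c := by
      funext k; exact hdet _
    rw [h2] at h1
    exact (tendsto_nhds_unique h1 tendsto_const_nhds)
  have hform : ∀ (B : Matrix (Fin n) (Fin n) ℝ) (e : Fin n → ℝ),
      star e ⬝ᵥ (B *ᵥ e) = ∑ i, ∑ j, B i j * e i * e j := by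
    intro B e
    simp only [dotProduct, mulVec, Finset.mul_sum]
    refine Finset.sum_congr rfl fun i _ => Finset.sum_congr rfl fun j _ => ?_
    simp; ring
  have hle : ∀ x, (A - hess u x).PosSemidef := by
    intro x
    refine Matrix.PosSemidef.of_dotProduct_mulVec_nonneg ?_ fun e => ?_
    · ext i j
      simp [hAs j i, hess_isHermitian (hpos x) j i]
    · rw [hform]
      have h1 := hK e x
      rw [hKA e, hq] at h1
      have h2 : ∑ i, ∑ j, (A - hess u x) i j * e i * e j =
          (∑ i, ∑ j, A i j * e i * e j) - ∑ i, ∑ j, hess u x i j * e i * e j := by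
        rw [← Finset.sum_sub_distrib]
        refine Finset.sum_congr rfl fun i _ => ?_
        rw [← Finset.sum_sub_distrib]
        refine Finset.sum_congr rfl fun j _ => ?_
        simp [Matrix.sub_apply]; ring
      rw [h2]; linarith
  have hAp : A.PosDef := by
    have := (hpos 0).add_posSemidef (hle 0)
    simpa using this
  have hconst : ∀ x, hess u x = A := fun x =>
    eq_of_le_of_det_eq hAp (hpos x) (hle x) (by rw [hdet, hdetA])
  exact paraboloid_of_hess_const hu hAp hconst

end Vale.Agent.P252.H651
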