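import Mathlib
import Vale.Agent.P252.BernsteinDefs
import Vale.Agent.P252.H429.Base
import Vale.Agent.P252.H651.LinAlg
import Vale.Agent.P252.H651.EndGame

/-! Versions of the end game over an open convex set. -/

open Matrix Filter Set
open scoped ContDiff Topology

namespace Vale.Agent.P252.H651

open Vale.Agent.P252.H429

variable {n : ℕ}

/-- A function with constant symmetric Hessian on an open convex set is a quadratic polynomial
there. -/
theorem quadratic_of_hess_const_on {Ω : Set (EuclideanSpace ℝ (Fin n))}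
    {u : EuclideanSpace ℝ (Fin n) → ℝ} (hΩ : IsOpen Ω) (hc : Convex ℝ Ω) (hne : Ω.Nonempty)
    (hu : ContDiffOn ℝ ∞ u Ω) {A : Matrix (Fin n) (Fin n) ℝ} (hAs : ∀ i j, A i j = A j i)
    (h : ∀ x ∈ Ω, hess u x = A) :
    ∃ (b : Fin n → ℝ) (c : ℝ), ∀ x ∈ Ω,
      u x = (∑ i, ∑ j, A i j * x i * x j) / 2 + ∑ i, b i * x i + c := by
  obtain ⟨x₀, hx₀⟩ := hne
  have hpre : IsPreconnected Ω := hc.isPreconnected
  have huat : ∀ x ∈ Ω, ContDiffAt ℝ ∞ u x := fun x hx => hu.contDiffAt (hΩ.mem_nhds hx)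
  have hpd : ∀ j, ∀ x ∈ Ω, ContDiffAt ℝ ∞ (pd j u) x := by
    intro j x hx
    exact contDiffAt_pd (m := ∞) (huat x hx) (by simp) j
  have hlin : ∀ j, ∃ b : ℝ, ∀ x ∈ Ω, pd j u x = (∑ i, A i j * x i) + b := by
    intro j
    have hd : Differentiable ℝ (fun x : EuclideanSpace ℝ (Fin n) => ∑ i, A i j * x i) := by
      fun_prop
    have hd2 : ∀ x ∈ Ω, DifferentiableAt ℝ (pd j u) x := fun x hx =>
      (hpd j x hx).differentiableAt (by simp)
    have hz : Ω.EqOn (fderiv ℝ (fun x : EuclideanSpace ℝ (Fin n) =>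
        pd j u x - ∑ i, A i j * x i)) 0 := by
      intro x hx
      ext v
      have e1 : fderiv ℝ (fun x : EuclideanSpace ℝ (Fin n) =>
        pd j u x - ∑ i, A i j * x i) x v = fderiv ℝ (pd j u) x v -
          fderiv ℝ (fun x : EuclideanSpace ℝ (Fin n) => ∑ i, A i j * x i) x v := by
        rw [fderiv_fun_sub (hd2 x hx) (hd x)]; rfl
      rw [e1, H651.fderiv_apply_eq_sum]
      have e2 : fderiv ℝ (fun x : EuclideanSpace ℝ (Fin n) => ∑ i, A i j * x i) x v =
          ∑ i, A i j * v i := by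
        have : HasFDerivAt (fun x : EuclideanSpace ℝ (Fin n) => ∑ i, A i j * x i)
            (∑ i, A i j • (EuclideanSpace.proj i : EuclideanSpace ℝ (Fin n) →L[ℝ] ℝ)) x := by
          apply HasFDerivAt.fun_sum
          intro i _
          exact ((EuclideanSpace.proj i : EuclideanSpace ℝ (Fin n) →L[ℝ] ℝ).hasFDerivAt).const_mul
            (A i j)
        rw [this.fderiv]
        simp
      rw [e2]
      have e3 : ∀ i, pd i (pd j u) x = A i j := by
        intro i
        have := congrFun (congrFun (h x hx) i) j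
        simpa [hess] using this
      simp only [e3]
      simp [mul_comm]
    refine ⟨pd j u x₀ - ∑ i, A i j * x₀ i, fun x hx => ?_⟩
    have := hΩ.is_const_of_fderiv_eq_zero (𝕜 := ℝ) hpre
      (f := fun x : EuclideanSpace ℝ (Fin n) => pd j u x - ∑ i, A i j * x i)
      (fun y hy => ((hd2 y hy).sub (hd y)).differentiableWithinAt) hz hx hx₀
    simp only at this
    linarith
  choose b hb using hlin
  have hQd : Differentiable ℝ (fun x : EuclideanSpace ℝ (Fin n) =>
      (∑ i, ∑ j, A i j * x i * x j) / 2 + ∑ i, b i * x i) := by fun_prop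
  have hud : ∀ x ∈ Ω, DifferentiableAt ℝ u x := fun x hx => (huat x hx).differentiableAt (by simp)
  have hz : Ω.EqOn (fderiv ℝ (fun x : EuclideanSpace ℝ (Fin n) =>
      u x - ((∑ i, ∑ j, A i j * x i * x j) / 2 + ∑ i, b i * x i))) 0 := by
    intro x hx
    ext v
    rw [fderiv_fun_sub (hud x hx) (hQd x)]
    have e0 : (fderiv ℝ u x - fderiv ℝ (fun x : EuclideanSpace ℝ (Fin n) =>
      (∑ i, ∑ j, A i j * x i * x j) / 2 + ∑ i, b i * x i) x) v = fderiv ℝ u x v -
        fderiv ℝ (fun x : EuclideanSpace ℝ (Fin n) =>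
      (∑ i, ∑ j, A i j * x i * x j) / 2 + ∑ i, b i * x i) x v := rfl
    rw [e0, H651.fderiv_apply_eq_sum]
    have e1 : HasFDerivAt (fun x : EuclideanSpace ℝ (Fin n) =>
      (∑ i, ∑ j, A i j * x i * x j) / 2 + ∑ i, b i * x i)
      ((2:ℝ)⁻¹ • (∑ i, ∑ j, ((A i j * x i) •
          (EuclideanSpace.proj j : EuclideanSpace ℝ (Fin n) →L[ℝ] ℝ) +
        x j • (A i j • (EuclideanSpace.proj i : EuclideanSpace ℝ (Fin n) →L[ℝ] ℝ))))
        + ∑ i, b i • (EuclideanSpace.proj i : EuclideanSpace ℝ (Fin n) →L[ℝ] ℝ)) x := by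
      refine HasFDerivAt.fun_add ?_ ?_
      · have h2 : (fun x : EuclideanSpace ℝ (Fin n) => (∑ i, ∑ j, A i j * x i * x j) / 2) =
            fun x => (2:ℝ)⁻¹ * (∑ i, ∑ j, A i j * x i * x j) := by
          funext x; ring
        rw [h2]
        refine HasFDerivAt.const_mul ?_ _
        refine HasFDerivAt.fun_sum fun i _ => HasFDerivAt.fun_sum fun j _ => ?_
        exact (((EuclideanSpace.proj i : EuclideanSpace ℝ (Fin n) →L[ℝ] ℝ).hasFDerivAt).const_mul
            (A i j)).mul ((EuclideanSpace.proj j : EuclideanSpace ℝ (Fin n) →L[ℝ] ℝ).hasFDerivAt)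
      · refine HasFDerivAt.fun_sum fun i _ => ?_
        exact ((EuclideanSpace.proj i : EuclideanSpace ℝ (Fin n) →L[ℝ] ℝ).hasFDerivAt).const_mul
            (b i)
    rw [e1.fderiv]
    have e4 : (∑ i, ∑ j, (x j * (A i j * v i))) = ∑ i, ∑ j, A i j * x i * v j := by
      rw [Finset.sum_comm]
      refine Finset.sum_congr rfl fun i _ => Finset.sum_congr rfl fun j _ => ?_
      rw [hAs j i]; ring
    have e5 : (((2:ℝ)⁻¹ • (∑ i, ∑ j, ((A i j * x i) •
          (EuclideanSpace.proj j : EuclideanSpace ℝ (Fin n) →L[ℝ] ℝ) +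
        x j • (A i j • (EuclideanSpace.proj i : EuclideanSpace ℝ (Fin n) →L[ℝ] ℝ))))
        + ∑ i, b i • (EuclideanSpace.proj i : EuclideanSpace ℝ (Fin n) →L[ℝ] ℝ)) v) =
        2⁻¹ * ((∑ i, ∑ j, A i j * x i * v j) + (∑ i, ∑ j, (x j * (A i j * v i)))) +
          ∑ i, b i * v i := by
      simp [Finset.sum_add_distrib, mul_add]
    rw [e5, e4]
    simp only [fun j => hb j x hx]
    have e6 : ∑ j, v j * ((∑ i, A i j * x i) + b j) =
        (∑ i, ∑ j, A i j * x i * v j) + ∑ i, b i * v i := by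
      simp only [mul_add, Finset.sum_add_distrib, Finset.mul_sum]
      rw [Finset.sum_comm]
      congr 1
      · refine Finset.sum_congr rfl fun i _ => Finset.sum_congr rfl fun j _ => ?_
        ring
      · refine Finset.sum_congr rfl fun i _ => ?_
        ring
    rw [e6]
    simp
    ring
  refine ⟨b, u x₀ - ((∑ i, ∑ j, A i j * x₀ i * x₀ j) / 2 + ∑ i, b i * x₀ i), fun x hx => ?_⟩
  have := hΩ.is_const_of_fderiv_eq_zero (𝕜 := ℝ) hpre
    (f := fun x : EuclideanSpace ℝ (Fin n) =>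
      u x - ((∑ i, ∑ j, A i j * x i * x j) / 2 + ∑ i, b i * x i))
    (fun y hy => ((hud y hy).sub (hQd y)).differentiableWithinAt) hz hx hx₀
  simp only at this
  linarith

/-- The end game over a set `Ω`. -/
theorem endgame_on {Ω : Set (EuclideanSpace ℝ (Fin n))} {u : EuclideanSpace ℝ (Fin n) → ℝ}
    (hpos : ∀ x ∈ Ω, (hess u x).PosDef) (c : ℝ) (hdet : ∀ x ∈ Ω, (hess u x).det = c)
    (K : (Fin n → ℝ) → ℝ) (hK : ∀ e, ∀ x ∈ Ω, hq u e x ≤ K e)
    (hgood : ∀ (F : Finset (Fin n → ℝ)) (δ : ℝ), 0 < δ →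
      ∃ x ∈ Ω, ∀ e ∈ F, K e - δ < hq u e x) :
    ∃ A : Matrix (Fin n) (Fin n) ℝ, A.PosDef ∧ ∀ x ∈ Ω, hess u x = A := by
  classical
  set A : Matrix (Fin n) (Fin n) ℝ := Matrix.of fun i j =>
    (K (Pi.single i 1 + Pi.single j 1) - K (Pi.single i 1 - Pi.single j 1)) / 4 with hA
  -- good points
  have hgood2 : ∀ (e : Fin n → ℝ) (δ : ℝ), 0 < δ → ∃ x ∈ Ω, |K e - hq u e x| < δ ∧
      ∀ i j, |A i j - hess u x i j| < δ := by
    intro e δ hδ
    obtain ⟨x, hxΩ, hx⟩ := hgood (insert e (Finset.univ.image (fun p : Fin n × Fin n =>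
      (Pi.single p.1 1 + Pi.single p.2 1 : Fin n → ℝ)) ∪ Finset.univ.image
        (fun p : Fin n × Fin n => (Pi.single p.1 1 - Pi.single p.2 1 : Fin n → ℝ)))) δ hδ
    refine ⟨x, hxΩ, ?_, fun i j => ?_⟩
    · have h1 := hx e (Finset.mem_insert_self _ _)
      have h2 := hK e x hxΩ
      rw [abs_lt]; constructor <;> linarith
    · have h1 := hx (Pi.single i 1 + Pi.single j 1) (Finset.mem_insert_of_mem
        (Finset.mem_union_left _ (Finset.mem_image.2 ⟨(i, j), Finset.mem_univ _, rfl⟩)))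
      have h2 := hx (Pi.single i 1 - Pi.single j 1) (Finset.mem_insert_of_mem
        (Finset.mem_union_right _ (Finset.mem_image.2 ⟨(i, j), Finset.mem_univ _, rfl⟩)))
      have h3 := hK (Pi.single i 1 + Pi.single j 1) x hxΩ
      have h4 := hK (Pi.single i 1 - Pi.single j 1) x hxΩ
      have h5 : hess u x i j = (hq u (Pi.single i 1 + Pi.single j 1) x -
          hq u (Pi.single i 1 - Pi.single j 1) x) / 4 :=
        sum_polar (hess u x) (hess_isHermitian (hpos x hxΩ)) i j
      have h6 : A i j = (K (Pi.single i 1 + Pi.single j 1) -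
        K (Pi.single i 1 - Pi.single j 1)) / 4 := rfl
      rw [h5, h6, abs_lt]
      constructor <;> linarith
  have hAs : ∀ i j, A i j = A j i := by
    intro i j
    by_contra hne
    obtain ⟨x, hxΩ, -, hx⟩ := hgood2 0 (|A i j - A j i| / 2) (by
      have : 0 < |A i j - A j i| := abs_pos.2 (sub_ne_zero.2 hne)
      linarith)
    have h1 := hx i j
    have h2 := hx j i
    rw [hess_isHermitian (hpos x hxΩ) j i] at h2
    have h3 : |A i j - A j i| ≤ |A i j - hess u x i j| + |A j i - hess u x i j| := by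
      have := abs_sub_le (A i j) (hess u x i j) (A j i)
      rw [abs_sub_comm (hess u x i j) (A j i)] at this
      exact this
    linarith
  -- the quadratic form of `A` is `K`
  have hKA : ∀ e, K e = ∑ i, ∑ j, A i j * e i * e j := by
    intro e
    set S := ∑ i, ∑ j, |e i * e j| with hS
    have hS0 : 0 ≤ S := Finset.sum_nonneg fun i _ => Finset.sum_nonneg fun j _ => abs_nonneg _
    refine eq_of_forall_dist_le fun ε hε => ?_
    obtain ⟨x, hxΩ, h1, h2⟩ := hgood2 e (ε / (1 + S)) (by positivity)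
    rw [Real.dist_eq]
    have h3 : |hq u e x - ∑ i, ∑ j, A i j * e i * e j| ≤ (ε / (1 + S)) * S := by
      have : hq u e x - ∑ i, ∑ j, A i j * e i * e j =
          ∑ i, ∑ j, (hess u x i j - A i j) * (e i * e j) := by
        rw [hq, ← Finset.sum_sub_distrib]
        refine Finset.sum_congr rfl fun i _ => ?_
        rw [← Finset.sum_sub_distrib]
        refine Finset.sum_congr rfl fun j _ => ?_
        ring
      rw [this, hS, Finset.mul_sum]
      refine (Finset.abs_sum_le_sum_abs _ _).trans (Finset.sum_le_sum fun i _ => ?_)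
      rw [Finset.mul_sum]
      refine (Finset.abs_sum_le_sum_abs _ _).trans (Finset.sum_le_sum fun j _ => ?_)
      rw [abs_mul]
      refine mul_le_mul_of_nonneg_right ?_ (abs_nonneg _)
      rw [abs_sub_comm]
      exact (h2 i j).le
    calc |K e - ∑ i, ∑ j, A i j * e i * e j|
        ≤ |K e - hq u e x| + |hq u e x - ∑ i, ∑ j, A i j * e i * e j| := abs_sub_le _ _ _
      _ ≤ ε / (1 + S) + (ε / (1 + S)) * S := add_le_add h1.le h3
      _ = ε := by field_simp
  -- `det A = c`
  have hdetA : A.det = c := by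
    have hseq : ∀ k : ℕ, ∃ x ∈ Ω, ∀ i j, |A i j - hess u x i j| < 1 / ((k : ℝ) + 1) := by
      intro k
      obtain ⟨x, hxΩ, -, hx⟩ := hgood2 0 (1 / ((k : ℝ) + 1)) (by positivity)
      exact ⟨x, hxΩ, hx⟩
    choose xs hxsΩ hxs using hseq
    have hlim : Tendsto (fun k => hess u (xs k)) atTop (𝓝 A) := by
      refine tendsto_pi_nhds.2 fun i => tendsto_pi_nhds.2 fun j => ?_
      rw [tendsto_iff_dist_tendsto_zero]
      refine squeeze_zero (fun _ => dist_nonneg) (fun k => ?_)
        tendsto_one_div_add_atTop_nhds_zero_nat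
      rw [dist_comm, Real.dist_eq]
      exact (hxs k i j).le
    have hcont : Continuous (fun M : Matrix (Fin n) (Fin n) ℝ => M.det) :=
      Continuous.matrix_det continuous_id
    have h1 := (hcont.tendsto A).comp hlim
    have h2 : (fun M : Matrix (Fin n) (Fin n) ℝ => M.det) ∘ (fun k => hess u (xs k)) =
        fun _ => c := by
      funext k; exact hdet _ (hxsΩ k)
    rw [h2] at h1
    exact (tendsto_nhds_unique h1 tendsto_const_nhds)
  have hform : ∀ (B : Matrix (Fin n) (Fin n) ℝ) (e : Fin n → ℝ),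
      star e ⬝ᵥ (B *ᵥ e) = ∑ i, ∑ j, B i j * e i * e j := by
    intro B e
    simp only [dotProduct, mulVec, Finset.mul_sum]
    refine Finset.sum_congr rfl fun i _ => Finset.sum_congr rfl fun j _ => ?_
    simp; ring
  have hle : ∀ x ∈ Ω, (A - hess u x).PosSemidef := by
    intro x hxΩ
    refine Matrix.PosSemidef.of_dotProduct_mulVec_nonneg ?_ fun e => ?_
    · ext i j
      simp [hAs j i, hess_isHermitian (hpos x hxΩ) j i]
    · rw [hform]
      have h1 := hK e x hxΩ
      rw [hKA e, hq] at h1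
      have h2 : ∑ i, ∑ j, (A - hess u x) i j * e i * e j =
          (∑ i, ∑ j, A i j * e i * e j) - ∑ i, ∑ j, hess u x i j * e i * e j := by
        rw [← Finset.sum_sub_distrib]
        refine Finset.sum_congr rfl fun i _ => ?_
        rw [← Finset.sum_sub_distrib]
        refine Finset.sum_congr rfl fun j _ => ?_
        simp [Matrix.sub_apply]; ring
      rw [h2]; linarith
  obtain ⟨x₀, hx₀, -⟩ := hgood ∅ 1 one_pos
  have hAp : A.PosDef := by
    have := (hpos x₀ hx₀).add_posSemidef (hle x₀ hx₀)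
    simpa using this
  exact ⟨A, hAp, fun x hx =>
    eq_of_le_of_det_eq hAp (hpos x hx) (hle x hx) (by rw [hdet x hx, hdetA])⟩

end Vale.Agent.P252.H651
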