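import Mathlib
import Vale.Agent.P252.BernsteinDefs
import Vale.Agent.P252.H429.Base
import Vale.Agent.P252.H651.LinAlg
import Vale.Agent.P252.H651.EndGame

open Matrix Filter
open scoped ContDiff Topology

namespace Vale.Agent.P252.H651

open Vale.Agent.P252.H429

variable {n : ℕ}

theorem eventually_contDiffAt {f : EuclideanSpace ℝ (Fin n) → ℝ} {x : EuclideanSpace ℝ (Fin n)}
    {k : ℕ} (hf : ContDiffAt ℝ k f x) : ∀ᶠ y in 𝓝 x, ContDiffAt ℝ k f y :=
  hf.eventually (by simp)

/-- Symmetry of fourth derivatives in the form needed for `∂_e² u`. -/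
theorem pd_four_swap {u : EuclideanSpace ℝ (Fin n) → ℝ} {x : EuclideanSpace ℝ (Fin n)}
    (hu : ContDiffAt ℝ 4 u x) (a b i j : Fin n) :
    pd a (pd b (pd i (pd j u))) x = pd i (pd j (pd a (pd b u))) x := by
  have hev : ∀ᶠ y in 𝓝 x, ContDiffAt ℝ 4 u y := hu.eventually (by simp)
  have hev3 : ∀ c : Fin n, ∀ᶠ y in 𝓝 x, ContDiffAt ℝ 3 (pd c u) y := fun c =>
    hev.mono fun y hy => contDiffAt_pd (m := 3) hy (by norm_num) c
  have hev2 : ∀ c d : Fin n, ∀ᶠ y in 𝓝 x, ContDiffAt ℝ 2 (pd c (pd d u)) y := fun c d =>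
    (hev3 d).mono fun y hy => contDiffAt_pd (m := 2) hy (by norm_num) c
  -- swap b and i
  have s1 : pd b (pd i (pd j u)) =ᶠ[𝓝 x] pd i (pd b (pd j u)) := by
    filter_upwards [hev3 j] with y hy
    exact hess_symm (f := pd j u) (hy.of_le (by norm_num)) b i
  have s2 : pd a (pd i (pd b (pd j u))) x = pd i (pd a (pd b (pd j u))) x :=
    hess_symm (f := pd b (pd j u)) (hev2 b j).self_of_nhds a i
  have s3 : ∀ᶠ y in 𝓝 x, pd b (pd j u) y = pd j (pd b u) y := by
    filter_upwards [hev] with y hy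
    exact hess_symm (f := u) (hy.of_le (by norm_num)) b j
  have s4 : pd a (pd b (pd j u)) =ᶠ[𝓝 x] pd j (pd a (pd b u)) := by
    filter_upwards [s3.eventually_nhds, hev3 b] with y hy hy3
    have h1 : pd a (pd b (pd j u)) y = pd a (pd j (pd b u)) y := pd_congr hy a
    rw [h1]
    exact hess_symm (f := pd b u) (hy3.of_le (by norm_num)) a j
  rw [pd_congr s1 a, s2, pd_congr s4 i]

theorem hess_hq {u : EuclideanSpace ℝ (Fin n) → ℝ} {x : EuclideanSpace ℝ (Fin n)}
    (hu : ContDiffAt ℝ 4 u x) (e : Fin n → ℝ) (i j : Fin n) :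
    hess (hq u e) x i j = ∑ a, ∑ b, e a * e b * pd i (pd j (pd a (pd b u))) x := by
  have h2 : ∀ a b, ContDiffAt ℝ 2 (pd a (pd b u)) x := fun a b =>
    contDiffAt_pd (m := 2) (contDiffAt_pd (m := 3) hu (by norm_num) b) (by norm_num) a
  have e1 : hess (hq u e) x i j =
      hess (fun y => ∑ a, ∑ b, (e a * e b) * pd a (pd b u) y) x i j := by
    have : hq u e = fun y => ∑ a, ∑ b, (e a * e b) * pd a (pd b u) y := by
      funext y
      unfold hq
      refine Finset.sum_congr rfl fun a _ => Finset.sum_congr rfl fun b _ => ?_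
      simp only [hess, Matrix.of_apply]; ring
    rw [this]
  rw [e1, hess_sum (F := fun a y => ∑ b, (e a * e b) * pd a (pd b u) y)]
  · refine Finset.sum_congr rfl fun a _ => ?_
    rw [hess_sum (F := fun b y => (e a * e b) * pd a (pd b u) y)]
    · refine Finset.sum_congr rfl fun b _ => ?_
      rw [hess_const_mul _ (h2 a b)]
      rfl
    · intro b _
      exact contDiffAt_const.mul (h2 a b)
  · intro a _
    exact ContDiffAt.sum fun b _ => contDiffAt_const.mul (h2 a b)

/-- If `det D²u` is locally constant then `∂_e² u` is a subsolution of the linearised operator. -/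
theorem subsolution_hq {u : EuclideanSpace ℝ (Fin n) → ℝ} {x : EuclideanSpace ℝ (Fin n)}
    (hu : ContDiffAt ℝ 4 u x) (hpos : ∀ᶠ y in 𝓝 x, (hess u y).PosDef)
    (hdet : ∀ᶠ y in 𝓝 x, (hess u y).det = (hess u x).det) (e : Fin n → ℝ) :
    0 ≤ ∑ i, ∑ j, (hess u x)⁻¹ i j * hess (hq u e) x i j := by
  set W := (hess u x)⁻¹ with hW
  have h2 : ∀ a b, ContDiffAt ℝ 2 (pd a (pd b u)) x := fun a b =>
    contDiffAt_pd (m := 2) (contDiffAt_pd (m := 3) hu (by norm_num) b) (by norm_num) a
  have hposx := hpos.self_of_nhds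
  -- the function with a minimum at `x`
  set F : EuclideanSpace ℝ (Fin n) → ℝ := fun y => ∑ i, ∑ j, W i j * pd i (pd j u) y with hF
  have hFC : ContDiffAt ℝ 2 F x := by
    rw [hF]
    exact ContDiffAt.sum fun i _ => ContDiffAt.sum fun j _ => contDiffAt_const.mul (h2 i j)
  have hsymW : ∀ i j, W i j = W j i := by
    intro i j
    have := hposx.inv.isHermitian.apply j i
    simpa using this
  have htr : ∀ y, F y = (W * hess u y).trace := by
    intro y
    rw [hF, Matrix.trace]
    simp only [Matrix.diag_apply, Matrix.mul_apply]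
    rw [Finset.sum_comm]
    refine Finset.sum_congr rfl fun j _ => Finset.sum_congr rfl fun i _ => ?_
    rw [hsymW i j]; rfl
  have hmin : IsLocalMax (fun y => -F y) x := by
    filter_upwards [hpos, hdet] with y hy1 hy2
    rw [htr y, htr x]
    have h3 := card_le_trace_inv_mul hposx hy1 hy2
    have h4 : (W * hess u x).trace = n := by
      rw [hW, Matrix.nonsing_inv_mul _ (isUnit_iff_ne_zero.2 hposx.det_pos.ne')]
      simp
    rw [h4]
    exact neg_le_neg h3
  have hform := hess_form_nonpos (f := fun y => -F y) hFC.neg hmin e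
  have hFab : ∀ a b, hess (fun y => -F y) x a b =
      -∑ i, ∑ j, W i j * pd a (pd b (pd i (pd j u))) x := by
    intro a b
    rw [hess_neg, hF, hess_sum (F := fun i y => ∑ j, W i j * pd i (pd j u) y)]
    · congr 1
      refine Finset.sum_congr rfl fun i _ => ?_
      rw [hess_sum (F := fun j y => W i j * pd i (pd j u) y)]
      · refine Finset.sum_congr rfl fun j _ => ?_
        rw [hess_const_mul _ (h2 i j)]
        rfl
      · intro j _
        exact contDiffAt_const.mul (h2 i j)
    · intro i _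
      exact ContDiffAt.sum fun j _ => contDiffAt_const.mul (h2 i j)
  simp only [hFab] at hform
  have hgoal : ∑ i, ∑ j, W i j * hess (hq u e) x i j =
      -∑ a, ∑ b, e a * e b * -∑ i, ∑ j, W i j * pd a (pd b (pd i (pd j u))) x := by
    simp only [hess_hq hu, mul_neg, Finset.sum_neg_distrib, neg_neg, Finset.mul_sum]
    calc ∑ i, ∑ j, ∑ a, ∑ b, W i j * (e a * e b * pd i (pd j (pd a (pd b u))) x)
        = ∑ i, ∑ a, ∑ j, ∑ b, W i j * (e a * e b * pd i (pd j (pd a (pd b u))) x) :=
          Finset.sum_congr rfl fun i _ => Finset.sum_comm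
      _ = ∑ a, ∑ i, ∑ j, ∑ b, W i j * (e a * e b * pd i (pd j (pd a (pd b u))) x) :=
          Finset.sum_comm
      _ = ∑ a, ∑ i, ∑ b, ∑ j, W i j * (e a * e b * pd i (pd j (pd a (pd b u))) x) :=
          Finset.sum_congr rfl fun a _ => Finset.sum_congr rfl fun i _ => Finset.sum_comm
      _ = ∑ a, ∑ b, ∑ i, ∑ j, W i j * (e a * e b * pd i (pd j (pd a (pd b u))) x) :=
          Finset.sum_congr rfl fun a _ => Finset.sum_comm
      _ = _ := by
          refine Finset.sum_congr rfl fun a _ => Finset.sum_congr rfl fun b _ =>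
            Finset.sum_congr rfl fun i _ => Finset.sum_congr rfl fun j _ => ?_
          rw [pd_four_swap hu a b i j]; ring
  rw [hgoal]
  linarith

end Vale.Agent.P252.H651
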